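import Vale.Agent.Lib.P335.BipProof

namespace Vale.Agent.Results.P335.BipartiteKTV

open Vale.Agent.Lib.P335

/-- The bipartite Kannan-Tetali-Vempala theorem: for all row sums `r` and column sums `c`, from
every binary table `x` with these margins, the lazy switch chain is within total variation
distance `1/4` of the uniform distribution after every `t ≥ (m n)^3` steps. -/
theorem result {m n : ℕ} (hm : 2 ≤ m) (hn : 2 ≤ n) (r : Fin m → ℕ) (c : Fin n → ℕ)
    (t : ℕ) (ht : (m * n) ^ 3 ≤ t) (x : Tab r c) :
    (∑ y, |(bipKernel r c ^ t) x y - 1 / (Fintype.card (Tab r c) : ℝ)|) / 2 ≤ 1 / 4 :=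
  bip_mixing hm hn t ht x

end Vale.Agent.Results.P335.BipartiteKTV
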