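import Vale.Agent.Lib.P335.GenFinal

namespace Vale.Agent.Results.P335.FullKTV

open Vale.Agent.Lib.P335

/-- The Kannan-Tetali-Vempala conjecture for simple graphs: the switch chain `P_d` of the problem
mixes in at most `n ^ 6` steps for every `n ≥ 4` and every degree vector `d`. From any realization
`G` of `d`, after any `t ≥ n ^ 6` steps, the total variation distance to the uniform distribution
on the realizations of `d` is at most `1 / 4`. The statement is about `P_d` itself, as defined in
the problem (`switchKernel`, `Realization`). -/
theorem result {n : ℕ} (hn : 4 ≤ n) (d : Fin n → ℕ) (t : ℕ) (ht : n ^ 6 ≤ t) (G : Realization d) :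
    (∑ G', |(switchKernel d ^ t) G G' - 1 / (Fintype.card (Realization d) : ℝ)|) / 2 ≤ 1 / 4 :=
  full_mixing hn d t ht G

end Vale.Agent.Results.P335.FullKTV
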