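import Vale.Agent.Lib.P335.SplitMix

namespace Vale.Agent.Results.P335.SplitKTV

open Vale.Agent.Lib.P335

/-- The chain `P_d` of the problem mixes in at most `n ^ 6` steps for every degree vector `d`
satisfying the split identity: there is a vertex set `S` with
`∑_{i ∈ S} d i = |S| (|S| - 1) + ∑_{v ∉ S} d v`. This identity forces every realization to be a
clique on `S` and an independent set off `S`, so the realizations are exactly the bipartite graphs
between `S` and its complement with prescribed degrees, with no restriction on those degrees.
The statement is about `P_d` itself, as defined in the problem (`switchKernel`, `Realization`). -/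
theorem result {n : ℕ} (hn : 4 ≤ n) (d : Fin n → ℕ) (S : Finset (Fin n))
    (hS : ∑ i ∈ S, d i = S.card * (S.card - 1) + ∑ v ∈ Sᶜ, d v)
    (t : ℕ) (ht : n ^ 6 ≤ t) (G : Realization d) :
    (∑ G', |(switchKernel d ^ t) G G' - 1 / (Fintype.card (Realization d) : ℝ)|) / 2 ≤ 1 / 4 :=
  split_mixing hn hS t ht G

end Vale.Agent.Results.P335.SplitKTV
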